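import Vale.Agent.P064.Defs
import Vale.Agent.P064.Full

open Vale.Agent.P064

theorem Vale.Agent.Results.P064.Full.result :
    ∀ n : ℕ, 2 ≤ n → ∀ (V : Type) [Fintype V] (H : SimpleGraph V),
      Fintype.card V ≤ n → H ≠ ⊥ →
        pc n H ≤ 2 ^ 87 * pE n H * Real.log n ∧
        pc n H ≤ 2 ^ 84 * ((Nat.log 8 (Nat.card H.edgeSet) + 1 : ℕ) : ℝ) * pE n H :=
  fun _ hn _ _ H hV hH => ⟨pc_le_log H hV hn hH, pc_le_log_edges H hV hH⟩
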